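import Vale.Agent.P181.H54.Propagate

/-!
P181: propagation of Foulkes' inequality in the second argument. If all rows but the first are at
most `d`, the inequality for the pair `(a, d)` gives it for every pair `(a, b)` with `d ≤ b`.
-/

set_option autoImplicit false

open scoped TensorProduct

namespace Vale.Agent.P181.ModP

open Vale.Agent.P181 Vale.Agent.P181.H280 Vale.Agent.P181.H54

/-- If all rows but the first are at most `d`, Foulkes' inequality for `(a, d)` (for the weights
which differ from `lam` only in the first row) gives it for `(a, b)`, `d ≤ b`. -/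
theorem foulkes_prop {m : ℕ} (a d b : ℕ) (hdb : d ≤ b) (lam : Fin (m + 1) → ℕ)
    (hlam : ∀ i : Fin (m + 1), i ≠ 0 → lam i ≤ d)
    (hF : ∀ mu : Fin (m + 1) → ℕ, (∀ i : Fin (m + 1), i ≠ 0 → mu i = lam i) →
      plethMult a d (m + 1) mu ≤ plethMult d a (m + 1) mu) :
    plethMult a b (m + 1) lam ≤ plethMult b a (m + 1) lam := by
  obtain ⟨k, rfl⟩ := Nat.exists_eq_add_of_le hdb
  by_cases h0 : lam 0 < a * k
  · rw [plethMult_small a d lam hlam k h0]
    exact Nat.zero_le _
  · rw [not_lt] at h0
    let mu : Fin (m + 1) → ℕ := fun i => lam i - if i = 0 then a * k else 0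
    have hmu : addFirst mu (a * k) = lam := by
      funext i
      by_cases hi : i = 0
      · subst hi
        simp only [addFirst, mu, if_true]
        omega
      · simp only [addFirst, mu, hi, if_false, add_zero, Nat.sub_zero]
    have hmu' : ∀ i : Fin (m + 1), i ≠ 0 → mu i = lam i := fun i hi => by
      simp only [mu, hi, if_false, Nat.sub_zero]
    have h1 := plethMult_stab_iter a d mu (by
      intro i hi
      rw [hmu' i hi]
      exact hlam i hi) k
    have h2 := plethMult_mono_iter (m := m) a d mu k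
    rw [hmu] at h1 h2
    exact (h1.trans (hF mu hmu')).trans h2

/-- The same with `n` letters, and in the form needed for middle rows equal to `d`. -/
theorem foulkes_prop_mid {a b d n : ℕ} (ha : 1 ≤ a) (hn : a ≤ n) (hdb : d ≤ b)
    (lam : Fin n → ℕ)
    (hmid : ∀ i : Fin n, (i : ℕ) ≠ 0 → (i : ℕ) + 1 < a → lam i = d)
    (hlast : ∀ i : Fin n, (i : ℕ) ≠ 0 → (i : ℕ) + 1 = a → lam i ≤ d)
    (hend : ∀ i : Fin n, a ≤ (i : ℕ) → lam i = 0)
    (hF : ∀ mu : Fin n → ℕ,
      (∀ i : Fin n, (i : ℕ) ≠ 0 → (i : ℕ) + 1 < a → mu i = d) →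
      (∀ i : Fin n, a ≤ (i : ℕ) → mu i = 0) →
      plethMult a d n mu ≤ plethMult d a n mu) :
    plethMult a b n lam ≤ plethMult b a n lam := by
  obtain ⟨m, rfl⟩ : ∃ m, n = m + 1 := ⟨n - 1, by omega⟩
  have hne : ∀ i : Fin (m + 1), i ≠ 0 → (i : ℕ) ≠ 0 := fun i hi h => hi (Fin.ext h)
  refine foulkes_prop a d b hdb lam (fun i hi => ?_) (fun mu hmu => ?_)
  · have h0 := hne i hi
    rcases lt_trichotomy ((i : ℕ) + 1) a with h | h | h
    · exact (hmid i h0 h).le
    · exact hlast i h0 h
    · rw [hend i (by omega)]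
      exact Nat.zero_le _
  · refine hF mu (fun i h0 hi => ?_) (fun i hi => ?_)
    · rw [hmu i (fun h => h0 (by rw [h]; rfl))]
      exact hmid i h0 hi
    · have h0 : (i : ℕ) ≠ 0 := by omega
      rw [hmu i (fun h => h0 (by rw [h]; rfl))]
      exact hend i hi

end Vale.Agent.P181.ModP
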