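import Vale.Agent.P181.R2.H24.Defs

/-!
P181, row D: modulo a prime `p > a` a coefficient array of a kernel element which depends only on
the cells with the first letter vanishes.
-/

set_option autoImplicit false

namespace Vale.Agent.P181.ModP

open Finset

/-- Two predicates with the same number of elements differ by a permutation. -/
theorem exists_perm_of_card {α : Type*} [Fintype α] [DecidableEq α] (p q : α → Prop)
    [DecidablePred p] [DecidablePred q]
    (h : (univ.filter p).card = (univ.filter q).card) :
    ∃ π : Equiv.Perm α, ∀ x, p x ↔ q (π x) := by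
  have e : {x // p x} ≃ {x // q x} := Fintype.equivOfCardEq (by
    rw [Fintype.card_subtype, Fintype.card_subtype]; exact h)
  refine ⟨e.extendSubtype, fun x => ?_⟩
  by_cases hx : p x
  · exact ⟨fun _ => e.extendSubtype_mem x hx, fun _ => hx⟩
  · exact ⟨fun h => absurd h hx, fun h => absurd h (e.extendSubtype_not_mem x hx)⟩

/-- A downward closed predicate on `Fin b` is an initial segment. -/
theorem initial_of_downward {b : ℕ} (P : Fin b → Prop) [DecidablePred P]
    (hP : ∀ q q' : Fin b, q ≤ q' → P q' → P q) (q : Fin b) :
    P q ↔ (q : ℕ) < (univ.filter P).card := by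
  constructor
  · intro h
    have hsub : (Finset.Iic q) ⊆ univ.filter P := by
      intro r hr
      simp only [Finset.mem_Iic] at hr
      simp only [mem_filter, mem_univ, true_and]
      exact hP r q hr h
    have h2 := Finset.card_le_card hsub
    rw [Fin.card_Iic] at h2
    omega
  · intro h
    by_contra hn
    have hsub : univ.filter P ⊆ Finset.Iio q := by
      intro r hr
      simp only [mem_filter, mem_univ, true_and] at hr
      simp only [Finset.mem_Iio]
      by_contra hlt
      exact hn (hP q r (not_lt.mp hlt) hr)
    have h2 := Finset.card_le_card hsub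
    rw [Fin.card_Iio] at h2
    omega

/-- Two functions with the same level counts differ by a permutation. -/
theorem exists_perm_of_levels {a : ℕ} (M N : Fin a → ℕ)
    (h : ∀ k : ℕ, (univ.filter (fun j => k < M j)).card = (univ.filter (fun j => k < N j)).card) :
    ∃ τ : Equiv.Perm (Fin a), ∀ j, M j = N (τ j) := by
  have h' : ∀ k : ℕ, (univ.filter (fun j => k ≤ M j)).card =
      (univ.filter (fun j => k ≤ N j)).card := by
    intro k
    cases k with
    | zero => simp
    | succ k => exact h k
  have hf : ∀ k : ℕ, (univ.filter (fun j => M j = k)).card =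
      (univ.filter (fun j => N j = k)).card := by
    intro k
    have split : ∀ L : Fin a → ℕ, (univ.filter (fun j => k ≤ L j)).card =
        (univ.filter (fun j => k < L j)).card + (univ.filter (fun j => L j = k)).card := by
      intro L
      rw [← Finset.card_union_of_disjoint]
      · congr 1
        ext j
        simp only [mem_filter, mem_union, mem_univ, true_and]
        omega
      · rw [Finset.disjoint_filter]
        intro j _ h1 h2
        omega
    have h1 := split M
    have h2 := split N
    have h3 := h k
    have h4 := h' k
    omega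
  have e : ∀ k : ℕ, {j // M j = k} ≃ {j // N j = k} := fun k => Fintype.equivOfCardEq (by
    rw [Fintype.card_subtype, Fintype.card_subtype]; exact hf k)
  exact ⟨Equiv.ofFiberEquiv e, fun j => (Equiv.ofFiberEquiv_map e j).symm⟩

/-- Families of permutations which preserve every predicate of the family `A`. -/
def stabS {a b : ℕ} (A : Fin b → Fin a → Prop) : Subgroup (Fin b → Equiv.Perm (Fin a)) where
  carrier := {s | ∀ q i, A q (s q i) ↔ A q i}
  mul_mem' := by
    intro s t hs ht q i
    show A q (s q (t q i)) ↔ A q i
    rw [hs, ht]
  one_mem' := by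
    intro q i
    exact Iff.rfl
  inv_mem' := by
    intro s hs q i
    show A q ((s q)⁻¹ i) ↔ A q i
    have h1 := hs q ((s q)⁻¹ i)
    have h2 : (s q) ((s q)⁻¹ i) = i := (s q).apply_symm_apply i
    rw [h2] at h1
    exact h1.symm

/-- Left multiplication by the stabiliser, right multiplication by constants. -/
@[reducible] def actS {a b : ℕ} (S : Subgroup (Fin b → Equiv.Perm (Fin a))) :
    MulAction (S × Equiv.Perm (Fin a)) (Fin b → Equiv.Perm (Fin a)) where
  smul g σ := fun q => (g.1 : Fin b → Equiv.Perm (Fin a)) q * σ q * (g.2)⁻¹
  one_smul σ := by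
    funext q
    show (1 : Equiv.Perm (Fin a)) * σ q * (1 : Equiv.Perm (Fin a))⁻¹ = σ q
    simp
  mul_smul g h σ := by
    funext q
    show (g.1 : Fin b → Equiv.Perm (Fin a)) q * (h.1 : Fin b → Equiv.Perm (Fin a)) q * σ q *
        (g.2 * h.2)⁻¹ = (g.1 : Fin b → Equiv.Perm (Fin a)) q *
          ((h.1 : Fin b → Equiv.Perm (Fin a)) q * σ q * (h.2)⁻¹) * (g.2)⁻¹
    simp only [mul_inv_rev, mul_assoc]

/-- The number of good families of permutations is prime to `p`. -/
theorem coprime_good {a b : ℕ} (p : ℕ) [Fact p.Prime] (hap : a < p)
    (A : Fin b → Fin a → Prop) (T : Finset (Fin b → Equiv.Perm (Fin a)))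
    (hT : ∀ σ, σ ∈ T ↔ ∃ τ : Equiv.Perm (Fin a), ∀ q j, A q (σ q j) ↔ A q (τ j)) :
    ¬ p ∣ T.card := by
  intro hdvd
  let _ : MulAction (stabS A × Equiv.Perm (Fin a)) (Fin b → Equiv.Perm (Fin a)) := actS (stabS A)
  have horb : (T : Set (Fin b → Equiv.Perm (Fin a))) =
      MulAction.orbit (stabS A × Equiv.Perm (Fin a)) (1 : Fin b → Equiv.Perm (Fin a)) := by
    ext σ
    rw [Finset.mem_coe, hT, MulAction.mem_orbit_iff]
    constructor
    · rintro ⟨τ, hτ⟩
      refine ⟨(⟨fun q => σ q * τ⁻¹, ?_⟩, τ⁻¹), ?_⟩
      · intro q i
        show A q (σ q (τ⁻¹ i)) ↔ A q i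
        have h2 : τ (τ⁻¹ i) = i := τ.apply_symm_apply i
        rw [hτ, h2]
      · funext q
        show σ q * τ⁻¹ * 1 * (τ⁻¹)⁻¹ = σ q
        simp
    · rintro ⟨⟨s, τ⟩, rfl⟩
      refine ⟨τ⁻¹, fun q j => ?_⟩
      show A q (((s : Fin b → Equiv.Perm (Fin a)) q * 1 * τ⁻¹) j) ↔ _
      rw [mul_one, Equiv.Perm.mul_apply]
      exact s.2 q (τ⁻¹ j)
  have h1 : T.card ∣ Nat.card (stabS A × Equiv.Perm (Fin a)) := by
    rw [← Set.ncard_coe_finset T, horb, ← MulAction.index_stabilizer]
    exact Subgroup.index_dvd_card _
  rw [Nat.card_prod] at h1
  have h2 : Nat.card (stabS A) ∣ Nat.card (Fin b → Equiv.Perm (Fin a)) :=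
    Subgroup.card_subgroup_dvd_card _
  have h3 : Nat.card (Equiv.Perm (Fin a)) = a.factorial := by
    rw [Nat.card_eq_fintype_card, Fintype.card_perm, Fintype.card_fin]
  have h4 : Nat.card (Fin b → Equiv.Perm (Fin a)) = a.factorial ^ b := by
    rw [Nat.card_eq_fintype_card, Fintype.card_fun, Fintype.card_perm, Fintype.card_fin,
      Fintype.card_fin]
  rw [h4] at h2
  rw [h3] at h1
  have hp : p.Prime := Fact.out
  have h5 : p ∣ a.factorial ^ b * a.factorial :=
    (hdvd.trans h1).trans (Nat.mul_dvd_mul_right h2 _)
  have h6 : p ∣ a.factorial := by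
    rcases hp.dvd_mul.mp h5 with h | h
    · exact hp.dvd_of_dvd_pow h
    · exact h
  have := (hp.dvd_factorial).mp h6
  omega

/-- Zero cells of a row. -/
def zc {a b : ℕ} [NeZero a] (w : Lab a b a) (j : Fin a) : ℕ :=
  (univ.filter (fun q : Fin b => w (j, q) = 0)).card

/-- The convex potential. -/
def phi {a b : ℕ} [NeZero a] (w : Lab a b a) : ℕ := ∑ j, (zc w j) ^ 2

theorem phi_eq {a b : ℕ} [NeZero a] (w : Lab a b a) :
    phi w = ∑ q : Fin b, ∑ q' : Fin b,
      (univ.filter (fun j : Fin a => w (j, q) = 0 ∧ w (j, q') = 0)).card := by
  have h1 : ∀ j : Fin a, (zc w j) ^ 2 = ∑ q : Fin b, ∑ q' : Fin b,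
      (if w (j, q) = 0 ∧ w (j, q') = 0 then 1 else 0) := by
    intro j
    unfold zc
    rw [sq, Finset.card_filter, Finset.sum_mul_sum]
    refine Finset.sum_congr rfl fun q _ => Finset.sum_congr rfl fun q' _ => ?_
    by_cases h : w (j, q) = 0 <;> by_cases h' : w (j, q') = 0 <;> simp [h, h']
  unfold phi
  simp only [h1]
  rw [Finset.sum_comm]
  refine Finset.sum_congr rfl fun q _ => ?_
  rw [Finset.sum_comm]
  refine Finset.sum_congr rfl fun q' _ => ?_
  rw [Finset.card_filter]

theorem Wt.comp {a b n : ℕ} {lam : Fin n → ℕ} {w : Lab a b n} (h : Wt lam w)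
    (e : Equiv.Perm (Cell a b)) : Wt lam (fun x => w (e x)) := by
  intro l
  rw [← h l]
  unfold cells
  refine Finset.card_bij (fun x _ => e x) ?_ ?_ ?_
  · intro x hx
    simpa using hx
  · intro x _ y _ hxy
    exact e.injective hxy
  · intro y hy
    exact ⟨e.symm y, by simpa using hy, by simp⟩

/-- Permute the cells inside the columns. -/
def colPerm {a b : ℕ} (σ : Fin b → Equiv.Perm (Fin a)) : Equiv.Perm (Cell a b) where
  toFun x := (σ x.2 x.1, x.2)
  invFun x := ((σ x.2).symm x.1, x.2)
  left_inv x := by simp
  right_inv x := by simp

theorem card_comp_perm {α : Type*} [Fintype α] [DecidableEq α] (P : α → Prop) [DecidablePred P]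
    (e : Equiv.Perm α) :
    (univ.filter (fun j => P (e j))).card = (univ.filter P).card := by
  refine Finset.card_bij (fun x _ => e x) ?_ ?_ ?_
  · intro x hx
    simpa using hx
  · intro x _ y _ hxy
    exact e.injective hxy
  · intro y hy
    exact ⟨e.symm y, by simpa using hy, by simp⟩

/-- Row D: coefficients which depend only on the cells with the first letter vanish. -/
theorem zero_of_dep {a b : ℕ} [NeZero a] (p : ℕ) [Fact p.Prime] (hap : a < p)
    (lam : Fin a → ℕ) (c : Lab a b a → ZMod p) (hc : Sol lam c)
    (hdep : ∀ w w' : Lab a b a, Wt lam w → Wt lam w' → (∀ x, w x = 0 ↔ w' x = 0) → c w = c w') :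
    c = 0 := by
  classical
  have key : ∀ m : ℕ, ∀ w : Lab a b a, phi w = m → c w = 0 := by
    intro m
    induction m using Nat.strong_induction_on with
    | _ m ih =>
      intro w hw
      have hzb : ∀ (v : Lab a b a) (j : Fin a), zc v j ≤ b := by
        intro v j
        unfold zc
        exact (Finset.card_filter_le _ _).trans (by simp)
      have hex : ∀ j : Fin a, ∃ π : Equiv.Perm (Fin b), ∀ q : Fin b,
          (q : ℕ) < zc w j ↔ w (j, π q) = 0 := by
        intro j
        refine exists_perm_of_card (fun q : Fin b => (q : ℕ) < zc w j)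
          (fun q : Fin b => w (j, q) = 0) ?_
        rw [Fin.card_filter_val_lt, min_eq_right (hzb w j)]
        rfl
      choose π hπ using hex
      obtain ⟨w1, hw1⟩ : ∃ w1 : Lab a b a, w1 = fun x => w (x.1, π x.1 x.2) := ⟨_, rfl⟩
      have hN : ∀ (j : Fin a) (q : Fin b), w1 (j, q) = 0 ↔ (q : ℕ) < zc w j := by
        intro j q
        rw [hw1]
        exact (hπ j q).symm
      have hz1 : ∀ j, zc w1 j = zc w j := by
        intro j
        have hh : zc w1 j = (univ.filter (fun q : Fin b => (q : ℕ) < zc w j)).card := by
          unfold zc
          congr 1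
          ext q
          simp only [mem_filter, mem_univ, true_and]
          exact hN j q
        rw [hh, Fin.card_filter_val_lt, min_eq_right (hzb w j)]
      have hphi1 : phi w1 = m := by
        rw [← hw]
        unfold phi
        exact Finset.sum_congr rfl fun j _ => by rw [hz1]
      have hcw : c w = c w1 := by
        rw [hw1]
        exact (hc.pos w π).symm
      rw [hcw]
      by_cases hwt : Wt lam w1
      swap
      · exact hc.wt w1 hwt
      let T : Finset (Fin b → Equiv.Perm (Fin a)) := univ.filter (fun σ =>
        ∃ τ : Equiv.Perm (Fin a), ∀ q j, w1 (σ q j, q) = 0 ↔ w1 (τ j, q) = 0)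
      have hT : ∀ σ, σ ∈ T ↔ ∃ τ : Equiv.Perm (Fin a), ∀ q j,
          w1 (σ q j, q) = 0 ↔ w1 (τ j, q) = 0 := by
        intro σ
        simp only [T, mem_filter, mem_univ, true_and]
      have hgood : ∀ σ ∈ T, c (fun x => w1 (σ x.2 x.1, x.2)) = c w1 := by
        intro σ hσ
        obtain ⟨τ, hτ⟩ := (hT σ).mp hσ
        rw [← hc.row w1 τ]
        refine hdep _ _ (hwt.comp (colPerm σ)) (hwt.comp (colPerm (fun _ => τ))) ?_
        intro x
        exact hτ x.2 x.1
      have hbad : ∀ σ, σ ∉ T → c (fun x => w1 (σ x.2 x.1, x.2)) = 0 := by
        intro σ hσ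
        obtain ⟨u, hu⟩ : ∃ u : Lab a b a, u = fun x => w1 (σ x.2 x.1, x.2) := ⟨_, rfl⟩
        rw [← hu]
        have hule : ∀ q q' : Fin b,
            (univ.filter (fun j : Fin a => u (j, q) = 0 ∧ u (j, q') = 0)).card ≤
            (univ.filter (fun j : Fin a => w1 (j, q) = 0 ∧ w1 (j, q') = 0)).card := by
          have hcard : ∀ q : Fin b, (univ.filter (fun j : Fin a => u (j, q) = 0)).card =
              (univ.filter (fun j : Fin a => w1 (j, q) = 0)).card := by
            intro q
            rw [hu]
            exact card_comp_perm (fun j : Fin a => w1 (j, q) = 0) (σ q)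
          intro q q'
          rcases le_total q q' with hqq | hqq
          · have e1 : (univ.filter (fun j : Fin a => w1 (j, q) = 0 ∧ w1 (j, q') = 0)) =
                (univ.filter (fun j : Fin a => w1 (j, q') = 0)) := by
              ext j
              simp only [mem_filter, mem_univ, true_and, hN]
              have : (q : ℕ) ≤ q' := hqq
              omega
            rw [e1, ← hcard]
            refine Finset.card_le_card fun j hj => ?_
            simp only [mem_filter, mem_univ, true_and] at hj ⊢
            exact hj.2
          · have e1 : (univ.filter (fun j : Fin a => w1 (j, q) = 0 ∧ w1 (j, q') = 0)) =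
                (univ.filter (fun j : Fin a => w1 (j, q) = 0)) := by
              ext j
              simp only [mem_filter, mem_univ, true_and, hN]
              have : (q' : ℕ) ≤ q := hqq
              omega
            rw [e1, ← hcard]
            refine Finset.card_le_card fun j hj => ?_
            simp only [mem_filter, mem_univ, true_and] at hj ⊢
            exact hj.1
        by_cases hlt : phi u < m
        · exact ih (phi u) hlt u rfl
        · exfalso
          apply hσ
          rw [hT]
          have hcard : ∀ q : Fin b, (univ.filter (fun j : Fin a => u (j, q) = 0)).card =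
              (univ.filter (fun j : Fin a => w1 (j, q) = 0)).card := by
            intro q
            rw [hu]
            exact card_comp_perm (fun j : Fin a => w1 (j, q) = 0) (σ q)
          have hsum : phi u = phi w1 := by
            apply le_antisymm
            · rw [phi_eq, phi_eq]
              exact Finset.sum_le_sum fun q _ => Finset.sum_le_sum fun q' _ => hule q q'
            · rw [hphi1]
              exact not_lt.mp hlt
          rw [phi_eq, phi_eq] at hsum
          have h1 := (Finset.sum_eq_sum_iff_of_le
            (fun q _ => Finset.sum_le_sum fun q' _ => hule q q')).mp hsum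
          have heq : ∀ q q' : Fin b,
              (univ.filter (fun j : Fin a => u (j, q) = 0 ∧ u (j, q') = 0)).card =
              (univ.filter (fun j : Fin a => w1 (j, q) = 0 ∧ w1 (j, q') = 0)).card := by
            intro q q'
            exact (Finset.sum_eq_sum_iff_of_le (fun q' _ => hule q q')).mp
              (h1 q (mem_univ q)) q' (mem_univ q')
          have hdown : ∀ q q' : Fin b, q ≤ q' → ∀ j, u (j, q') = 0 → u (j, q) = 0 := by
            intro q q' hqq j hj
            have e1 : (univ.filter (fun j : Fin a => w1 (j, q) = 0 ∧ w1 (j, q') = 0)) =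
                (univ.filter (fun j : Fin a => w1 (j, q') = 0)) := by
              ext j
              simp only [mem_filter, mem_univ, true_and, hN]
              have : (q : ℕ) ≤ q' := hqq
              omega
            have e2 := heq q q'
            rw [e1, ← hcard] at e2
            have e3 : (univ.filter (fun j : Fin a => u (j, q) = 0 ∧ u (j, q') = 0)) =
                (univ.filter (fun j : Fin a => u (j, q') = 0)) := by
              refine Finset.eq_of_subset_of_card_le ?_ (le_of_eq e2.symm)
              intro j hj
              simp only [mem_filter, mem_univ, true_and] at hj ⊢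
              exact hj.2
            have e4 : j ∈ (univ.filter (fun j : Fin a => u (j, q) = 0 ∧ u (j, q') = 0)) := by
              rw [e3]
              simp only [mem_filter, mem_univ, true_and]
              exact hj
            simp only [mem_filter, mem_univ, true_and] at e4
            exact e4.1
          have hM : ∀ (j : Fin a) (q : Fin b), u (j, q) = 0 ↔ (q : ℕ) < zc u j := by
            intro j q
            exact initial_of_downward (fun q : Fin b => u (j, q) = 0)
              (fun q q' hqq h => hdown q q' hqq j h) q
          have hlev : ∀ k : ℕ, (univ.filter (fun j => k < zc u j)).card =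
              (univ.filter (fun j => k < zc w j)).card := by
            intro k
            by_cases hk : k < b
            · have e1 : (univ.filter (fun j => k < zc u j)) =
                  (univ.filter (fun j : Fin a => u (j, ⟨k, hk⟩) = 0)) := by
                ext j
                simp only [mem_filter, mem_univ, true_and, hM]
              have e2 : (univ.filter (fun j => k < zc w j)) =
                  (univ.filter (fun j : Fin a => w1 (j, ⟨k, hk⟩) = 0)) := by
                ext j
                simp only [mem_filter, mem_univ, true_and, hN]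
              rw [e1, e2, hcard]
            · have e1 : (univ.filter (fun j => k < zc u j)) = ∅ := by
                rw [Finset.filter_eq_empty_iff]
                intro j _
                have := hzb u j
                omega
              have e2 : (univ.filter (fun j => k < zc w j)) = ∅ := by
                rw [Finset.filter_eq_empty_iff]
                intro j _
                have := hzb w j
                omega
              rw [e1, e2]
          obtain ⟨τ, hτ⟩ := exists_perm_of_levels (zc u) (zc w) hlev
          refine ⟨τ, fun q j => ?_⟩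
          have h2 := hM j q
          rw [hτ j, ← hN (τ j) q] at h2
          rw [hu] at h2
          exact h2
      have hker := hc.ker (fun q j => w1 (j, q))
      have hsplit : ∑ σ : Fin b → Equiv.Perm (Fin a), c (fun x => w1 (σ x.2 x.1, x.2)) =
          ∑ σ ∈ T, c w1 := by
        rw [← Finset.sum_subset (Finset.subset_univ T) (fun σ _ hσ => hbad σ hσ)]
        exact Finset.sum_congr rfl fun σ hσ => hgood σ hσ
      have hz : (T.card : ZMod p) * c w1 = 0 := by
        have h3 : ∑ σ ∈ T, c w1 = 0 := by
          rw [← hsplit]
          exact hker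
        rw [Finset.sum_const, nsmul_eq_mul] at h3
        exact h3
      rcases mul_eq_zero.mp hz with h | h
      · exfalso
        rw [ZMod.natCast_eq_zero_iff] at h
        exact coprime_good p hap (fun q j => w1 (j, q) = 0) T hT h
      · exact h
  funext w
  exact key (phi w) w rfl

end Vale.Agent.P181.ModP
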