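import Vale.Agent.P181.R2.H240.RowB
import Vale.Agent.P181.R2.H649.Transfer
import Vale.Agent.P181.R2.H397.GenR
import Vale.Agent.P181.R2.H397.Prop

/-!
P181: injectivity of the canonical map on the weights with middle rows `p - 1`, `p` prime.
-/

set_option autoImplicit false

open scoped TensorProduct

namespace Vale.Agent.P181.ModP

open Vale.Agent.P181 Vale.Agent.P181.H280 Vale.Agent.P181.H54

/-- The canonical map is injective on the highest weight vectors of every weight whose middle rows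
are `d`, `d + 1` prime, `a, b ≤ d`. -/
theorem injOn_mid {a b n d : ℕ} (ha : 1 ≤ a) (hn : a ≤ n) {p : ℕ} (hp : p.Prime)
    (hdp : d + 1 = p) (hbd : b ≤ d) (had : a ≤ d) (lam : Fin n → ℕ)
    (hmid : ∀ i : Fin n, (i : ℕ) ≠ 0 → (i : ℕ) + 1 < a → lam i = d)
    (hend : ∀ i : Fin n, a ≤ (i : ℕ) → lam i = 0)
    (x : Pleth a b n) (hx : x ∈ hwSpace lam (plethAct a b n))
    (h0 : foulkesHowe a b (Fin n → ℂ) x = 0) : x = 0 := by
  by_contra hx0
  have : Fact p.Prime := ⟨hp⟩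
  obtain ⟨c, hc, hc0⟩ := sol_of_hw lam x hx h0 hx0
  obtain ⟨c', hc', hc0'⟩ := transfer p c hc hc0
  exact hc0' (Gen.eq_zero_of_sol ha hn p hdp hbd had lam hmid hend c' hc')

/-- Foulkes' inequality for the same weights. -/
theorem plethMult_mid {a b n d : ℕ} (ha : 1 ≤ a) (hn : a ≤ n) {p : ℕ} (hp : p.Prime)
    (hdp : d + 1 = p) (hbd : b ≤ d) (had : a ≤ d) (lam : Fin n → ℕ)
    (hmid : ∀ i : Fin n, (i : ℕ) ≠ 0 → (i : ℕ) + 1 < a → lam i = d)
    (hend : ∀ i : Fin n, a ≤ (i : ℕ) → lam i = 0) :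
    plethMult a b n lam ≤ plethMult b a n lam :=
  finrank_le_of_inj (foulkesHowe a b (Fin n → ℂ)) _ _
    (fun x hx => H536.foulkesHowe_hwSpace lam x hx)
    (fun x hx h0 => injOn_mid ha hn hp hdp hbd had lam hmid hend x hx h0)

/-- Foulkes' inequality for all `b` (no relation between `b` and the prime `p > a`). -/
theorem foulkes_mid {a n p : ℕ} (ha : 1 ≤ a) (hn : a ≤ n) (hp : p.Prime) (hap : a < p) (b : ℕ)
    (lam : Fin n → ℕ)
    (hmid : ∀ i : Fin n, (i : ℕ) ≠ 0 → (i : ℕ) + 1 < a → lam i = p - 1)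
    (hlast : ∀ i : Fin n, (i : ℕ) ≠ 0 → (i : ℕ) + 1 = a → lam i ≤ p - 1)
    (hend : ∀ i : Fin n, a ≤ (i : ℕ) → lam i = 0) :
    plethMult a b n lam ≤ plethMult b a n lam := by
  have hp1 : (p - 1) + 1 = p := by omega
  rcases Nat.le_total b (p - 1) with h | h
  · exact plethMult_mid ha hn hp hp1 h (by omega) lam hmid hend
  · exact foulkes_prop_mid ha hn h lam hmid hlast hend (fun mu h1 h2 =>
      plethMult_mid ha hn hp hp1 le_rfl (by omega) mu h1 h2)

end Vale.Agent.P181.ModP
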